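import Vale.Agent.P267.H466.Flat
import Vale.Agent.P267.H399.Calc2

/-!
# P267 / GX-K (helper618): the compactly supported gauge

`α` holomorphic section of `(L, a)`, `L` trivial at the ends, `α → b₁ ≠ 0` at the outer end and
`a = ∂̄ψ` near the inner end. There is a gauge transformation `e^{-u}` such that the new holomorphic
structure `gauge a u` vanishes for `|f| ≥ R'` and the new section `gsec u α` is constant at the
outer end.
-/

set_option linter.unusedVariables false
set_option linter.unusedSectionVars false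

open scoped Manifold ContDiff ComplexConjugate Matrix Topology
open Set Filter

noncomputable section

namespace Vale.Agent.P267.H618

open FL XT H466

variable {M : Type} [TopologicalSpace M] [ChartedSpace C2 M] [IsManifold 𝓘(ℂ, C2) ω M]
variable {ι : Type} [Fintype ι] [DecidableEq ι]

/-- a locally smooth function near the inner end, cut off -/
theorem exists_cut {D : XTData M} {ψ : M → ℂ} {T : ℝ} (hψ : ∀ x, D.f x < T → At0 ∞ 0 ψ x) :
    ∃ v : M → ℂ, Reg0 ∞ 0 v ∧ (∀ x, T - 1 ≤ D.f x → v x = 0) ∧ ∀ x, D.f x ≤ T - 2 → v x = ψ x := by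
  have hfc : Continuous D.f := continuous_real D.f_smooth
  refine ⟨fun x => (Real.smoothTransition (T - 1 - D.f x) : ℂ) * ψ x, ?_, ?_, ?_⟩
  · rw [reg0_iff_at]
    intro x
    have hS : At0 ∞ 0 (fun x => (Real.smoothTransition (T - 1 - D.f x) : ℂ)) x := by
      rw [At0, LB.loc0_zero]
      set e := chartAt C2 x with he
      have h2 : ContDiffAt ℝ ∞ (fun z => T - 1 - D.f (e.symm z)) (e x) :=
        contDiffAt_const.sub (real_contDiffAt D.f_smooth (chart_mem_atlas C2 x)
          (mem_chart_target C2 x))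
      have h3 : ContDiffAt ℝ ∞ (fun z => Real.smoothTransition (T - 1 - D.f (e.symm z))) (e x) :=
        (Real.smoothTransition.contDiffAt).comp (e x) h2
      exact Complex.ofRealCLM.contDiff.contDiffAt.comp (e x) h3
    rcases lt_or_ge (D.f x) T with h | h
    · have := hS.smul (hψ x h)
      simpa [smul_eq_mul] using this
    · have h1 : ∀ᶠ y in 𝓝 x, T - 1 < D.f y :=
        hfc.continuousAt.eventually_const_lt (by linarith)
      have h2 : At0 ∞ 0 (fun _ : M => (0 : ℂ)) x := at0_zero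
      refine h2.congr ?_
      filter_upwards [h1] with y hy
      rw [Real.smoothTransition.zero_of_nonpos (by linarith)]
      simp
  · intro x hx
    simp only
    rw [Real.smoothTransition.zero_of_nonpos (by linarith)]
    simp
  · intro x hx
    simp only
    rw [Real.smoothTransition.one_of_one_le (by linarith)]
    simp

/-- **The compactly supported gauge.** -/
theorem exists_gauge (D : XTData M) {L : LB M ι} {i₀ : ι} {a : M → Fin 2 → ℂ} {R : ℝ}
    (hol : L.IsHol a) (triv : ∀ x, R ≤ |D.f x| → L.P x = Matrix.single i₀ i₀ 1)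
    {α : M → EuclideanSpace ℂ ι} (hreg : Reg0 ∞ 0 α) (hsec : L.Sec α)
    (hhol : ∀ x i, L.db0 a 0 α x i = 0) {b₁ : ℂ} (hb₁ : b₁ ≠ 0)
    (h₁ : Tendsto (fun x => α x i₀) (comap D.f atTop) (𝓝 b₁))
    {ψ : M → ℂ} {T₀ : ℝ} (hψ : ∀ x, D.f x < T₀ → At0 ∞ 0 ψ x)
    (hψa : ∀ x, D.f x < T₀ → ∀ i, dbar0 0 ψ x i = a x i) :
    ∃ R' : ℝ, R ≤ R' ∧ 0 < R' ∧ ∃ u : M → ℂ, Reg0 ∞ 0 u ∧ L.IsHol (gauge a u) ∧
      Reg0 ∞ 0 (gsec u α) ∧ L.Sec (gsec u α) ∧ (∀ x i, L.db0 (gauge a u) 0 (gsec u α) x i = 0) ∧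
      (∀ x, R' ≤ D.f x → gsec u α x = e₀ i₀) ∧
      (∀ x, D.f x ≤ -R' → u x = -ψ x) ∧
      (∀ x i, R' ≤ |D.f x| → gauge a u x i = 0) := by
  have hg : Reg0 ∞ 0 (fun x => α x i₀) := by
    intro e he
    have h := hreg e he
    rw [LB.loc0_zero] at h ⊢
    exact (PiLp.proj (𝕜 := ℝ) 2 (fun _ : ι => ℂ) i₀).contDiff.comp_contDiffOn h
  have hb₁' : 0 < ‖b₁‖ := norm_pos_iff.2 hb₁
  obtain ⟨T₁, hT₁⟩ : ∃ T₁ : ℝ, ∀ x, T₁ ≤ D.f x → ‖α x i₀ - b₁‖ < ‖b₁‖ := by
    have := h₁.eventually (Metric.ball_mem_nhds b₁ hb₁')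
    rw [eventually_comap] at this
    obtain ⟨T, hT⟩ := eventually_atTop.1 this
    exact ⟨T, fun x hx => by simpa [dist_eq_norm] using hT (D.f x) hx x rfl⟩
  set T : ℝ := max (max T₁ (-T₀)) (max R 0) with hTd
  have hTT₁ : T₁ ≤ T := (le_max_left _ _).trans (le_max_left _ _)
  have hTT₂ : -T₀ ≤ T := (le_max_right _ _).trans (le_max_left _ _)
  have hTR : R ≤ T := (le_max_left _ _).trans (le_max_right _ _)
  have hT0 : 0 ≤ T := (le_max_right _ _).trans (le_max_right _ _)
  obtain ⟨v₁, hv₁, hv₁0, hv₁1⟩ := exists_end_log hg D.f_smooth hb₁ (T := T)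
    fun x hx => hT₁ x (hTT₁.trans hx)
  obtain ⟨v₂, hv₂, hv₂0, hv₂1⟩ := exists_cut (D := D) (ψ := ψ) (T := -T)
    fun x hx => hψ x (by linarith)
  have hfc : Continuous D.f := continuous_real D.f_smooth
  have hu : Reg0 ∞ 0 (fun x => v₁ x - v₂ x) := by
    rw [reg0_iff_at]
    exact fun x => (hv₁.at x).sub (hv₂.at x)
  have hconst : ∀ x, T + 2 ≤ D.f x → gsec (fun x => v₁ x - v₂ x) α x = e₀ i₀ := by
    intro x hx
    have hexp : Complex.exp (v₁ x - v₂ x) = α x i₀ := by
      rw [hv₂0 x (by linarith), sub_zero]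
      exact hv₁1 x hx
    have hα : α x = α x i₀ • e₀ i₀ := by
      conv_lhs => rw [← hsec x, triv x (by rw [abs_of_nonneg (by linarith)]; linarith), act_single]
    unfold gsec
    rw [hα, smul_smul]
    have : (α x i₀ • e₀ i₀ : EuclideanSpace ℂ ι) i₀ = α x i₀ := by
      rw [← hα]
    rw [Complex.exp_neg, hexp, inv_mul_cancel₀, one_smul]
    rw [← hexp]
    exact Complex.exp_ne_zero _
  have hholu : ∀ x i, L.db0 (gauge a fun x => v₁ x - v₂ x) 0 (gsec (fun x => v₁ x - v₂ x) α) x i
      = 0 := by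
    intro x i
    rw [db0_gauge a hu hreg hsec, hhol x i, smul_zero]
  refine ⟨T + 3, by linarith, by linarith, fun x => v₁ x - v₂ x, hu, isHol_gauge hol hu,
    gsec_reg hu hreg, gsec_sec hsec _, hholu, fun x hx => hconst x (by linarith), ?_, ?_⟩
  · intro x hx
    simp only
    rw [hv₁0 x (by linarith), hv₂1 x (by linarith), zero_sub]
  · intro x i hx
    rcases le_total 0 (D.f x) with h0 | h0
    · rw [abs_of_nonneg h0] at hx
      have hz := hholu x i
      have hev : ∀ᶠ y in 𝓝 x, gsec (fun x => v₁ x - v₂ x) α y = e₀ i₀ := by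
        have : ∀ᶠ y in 𝓝 x, T + 2 < D.f y :=
          hfc.continuousAt.eventually_const_lt (by linarith)
        filter_upwards [this] with y hy using hconst y hy.le
      have hd : dbar0 0 (gsec (fun x => v₁ x - v₂ x) α) x i = 0 := by
        have h2 : dbar0 0 (gsec (fun x => v₁ x - v₂ x) α) x = dbar0 0 (fun _ : M => e₀ i₀) x :=
          dbar0_congr hev
        rw [h2]
        unfold dbar0
        rw [LB.loc0_zero]
        exact FL.dzb_const _ _ _
      unfold LB.db0 at hz
      rw [hd] at hz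
      have h0' : LB.act (L.P x) (0 : EuclideanSpace ℂ ι) = 0 := by
        have := H466.act_smul (L.P x) 0 (0 : EuclideanSpace ℂ ι)
        simpa using this
      rw [h0', zero_add, hconst x (by linarith), smul_eq_zero] at hz
      exact hz.resolve_right (e₀_ne_zero i₀)
    · rw [abs_of_nonpos h0] at hx
      have hev : (fun y => v₁ y - v₂ y) =ᶠ[𝓝 x] fun y => -ψ y := by
        have : ∀ᶠ y in 𝓝 x, D.f y < -(T + 2) :=
          hfc.continuousAt.eventually_lt continuousAt_const (by linarith)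
        filter_upwards [this] with y hy
        rw [hv₁0 y (by linarith), hv₂1 y (by linarith), zero_sub]
      show a x i + dbar0 0 (fun y => v₁ y - v₂ y) x i = 0
      rw [dbar0_congr hev, dbar0_neg ((hψ x (by linarith)).of_le (by simp)), Pi.neg_apply,
        hψa x (by linarith) i, add_neg_cancel]

end Vale.Agent.P267.H618
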